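import Vale.Agent.P034.Defs

/-!
# P034: the `q`-biased measure and the Park-Pham cover, in derandomised form
-/

namespace Vale.Agent.P034

open Finset

variable {X : Type*} [Fintype X] [DecidableEq X]

/-- Weight of `W` in the `q`-biased measure. -/
noncomputable def mu (q : ℝ) (W : Finset X) : ℝ :=
  q ^ W.card * (1 - q) ^ (univ \ W).card

theorem mu_nonneg {q : ℝ} (h0 : 0 ≤ q) (h1 : q ≤ 1) (W : Finset X) : 0 ≤ mu q W :=
  mul_nonneg (pow_nonneg h0 _) (pow_nonneg (by linarith) _)

theorem sum_mu_pow (q a : ℝ) (S : Finset X) :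
    ∑ W : Finset X, mu q W * a ^ (S \ W).card = (q + (1 - q) * a) ^ S.card := by
  have h := Finset.prod_add (fun _ : X => q) (fun x : X => (1 - q) * (if x ∈ S then a else 1))
    (univ : Finset X)
  have hl : ∏ x : X, (q + (1 - q) * (if x ∈ S then a else 1)) = (q + (1 - q) * a) ^ S.card := by
    calc ∏ x : X, (q + (1 - q) * (if x ∈ S then a else 1))
        = ∏ x : X, (if x ∈ S then (q + (1 - q) * a) else 1) := by
          refine prod_congr rfl fun x _ => ?_
          split_ifs
          · rfl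
          · ring
      _ = (q + (1 - q) * a) ^ S.card := by
          rw [prod_ite_mem, univ_inter, prod_const]
  rw [← hl, h, powerset_univ]
  refine sum_congr rfl fun W _ => ?_
  rw [prod_const, prod_mul_distrib, prod_const, mu, mul_assoc]
  congr 2
  rw [prod_ite_mem, prod_const]
  congr 2
  ext x
  simp [and_comm]

theorem sum_mu (q : ℝ) : ∑ W : Finset X, mu q W = 1 := by
  have := sum_mu_pow q 1 (∅ : Finset X)
  simpa using this

theorem exists_le_of_mu {q : ℝ} (h0 : 0 ≤ q) (h1 : q ≤ 1) (Φ : Finset X → ℝ) (c : ℝ)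
    (h : ∑ W : Finset X, mu q W * Φ W ≤ c) : ∃ W, Φ W ≤ c := by
  by_contra hcon
  push Not at hcon
  have h2 : c < ∑ W : Finset X, mu q W * Φ W := by
    have hex : ∃ W ∈ (univ : Finset (Finset X)), 0 < mu q W := by
      by_contra h
      push Not at h
      have h3 := sum_nonpos h
      rw [sum_mu] at h3
      linarith
    obtain ⟨W0, _, hW0⟩ := hex
    calc c = ∑ W : Finset X, mu q W * c := by rw [← sum_mul, sum_mu, one_mul]
      _ < ∑ W : Finset X, mu q W * Φ W := by
        refine sum_lt_sum (fun W _ => mul_le_mul_of_nonneg_left (hcon W).le (mu_nonneg h0 h1 W))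
          ⟨W0, mem_univ _, mul_lt_mul_of_pos_left (hcon W0) hW0⟩
  linarith

/-- The fractional cover formed by the fragments `S \ W`. -/
noncomputable def frag (g : Finset X → ℝ) (W : Finset X) : Finset X → ℝ :=
  fun A => ∑ S ∈ univ.filter (fun S => S \ W = A), g S

theorem frag_nonneg {g : Finset X → ℝ} (hg : ∀ S, 0 ≤ g S) (W A : Finset X) :
    0 ≤ frag g W A := sum_nonneg fun S _ => hg S

theorem fcost_frag (g : Finset X → ℝ) (W : Finset X) (a : ℝ) :
    fcost (frag g W) a = ∑ S : Finset X, g S * a ^ (S \ W).card := by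
  unfold fcost frag
  have : ∀ A : Finset X, (∑ S ∈ univ.filter (fun S => S \ W = A), g S) * a ^ A.card =
      ∑ S ∈ univ.filter (fun S => S \ W = A), g S * a ^ (S \ W).card := by
    intro A
    rw [sum_mul]
    refine sum_congr rfl fun S hS => ?_
    rw [(mem_filter.1 hS).2]
  simp_rw [this]
  exact sum_fiberwise univ (fun S => S \ W) (fun S => g S * a ^ (S \ W).card)

theorem sum_mu_fcost_frag {g : Finset X → ℝ} (hg : ∀ S, 0 ≤ g S) {q a : ℝ} (h0 : 0 ≤ q)
    (h1 : q ≤ 1) (ha : 0 ≤ a) :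
    ∑ W : Finset X, mu q W * fcost (frag g W) a ≤ fcost g (q + a) := by
  calc ∑ W : Finset X, mu q W * fcost (frag g W) a
      = ∑ W : Finset X, ∑ S : Finset X, g S * (mu q W * a ^ (S \ W).card) := by
        refine sum_congr rfl fun W _ => ?_
        rw [fcost_frag, mul_sum]
        exact sum_congr rfl fun S _ => by ring
    _ = ∑ S : Finset X, g S * (q + (1 - q) * a) ^ S.card := by
        rw [sum_comm]
        refine sum_congr rfl fun S _ => ?_
        rw [← mul_sum, sum_mu_pow]
    _ ≤ fcost g (q + a) := by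
        refine sum_le_sum fun S _ => mul_le_mul_of_nonneg_left ?_ (hg S)
        exact pow_le_pow_left₀ (by nlinarith [mul_nonneg (sub_nonneg.2 h1) ha])
          (by nlinarith) _

theorem frag_cover {g : Finset X → ℝ} (hg : ∀ S, 0 ≤ g S) (W H : Finset X)
    (hH : 1 ≤ ∑ S ∈ H.powerset, g S) : 1 ≤ ∑ A ∈ (H \ W).powerset, frag g W A := by
  refine hH.trans ?_
  have h1 : ∑ A ∈ (H \ W).powerset, frag g W A =
      ∑ S ∈ univ.filter (fun S => S \ W ∈ (H \ W).powerset), g S := by
    unfold frag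
    rw [← sum_fiberwise_of_maps_to (s := univ.filter (fun S => S \ W ∈ (H \ W).powerset))
      (t := (H \ W).powerset) (g := fun S => S \ W) (f := g)
      (fun S hS => (mem_filter.1 hS).2)]
    refine sum_congr rfl fun A hA => ?_
    refine sum_congr ?_ fun _ _ => rfl
    ext S
    simp only [mem_filter, mem_univ, true_and]
    constructor
    · intro h; exact ⟨h ▸ hA, h⟩
    · intro h; exact h.2
  rw [h1]
  refine sum_le_sum_of_subset_of_nonneg ?_ fun S _ _ => hg S
  intro S hS
  rw [mem_powerset] at hS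
  simp only [mem_filter, mem_univ, true_and, mem_powerset]
  exact sdiff_subset_sdiff hS (le_refl W)

/-- The set of minimal fragments of size at least `s` with respect to `W`. -/
noncomputable def bigFrag (𝓗 : Finset (Finset X)) (s : ℕ) (W : Finset X) : Finset (Finset X) :=
  (𝓗.filter (fun H => s ≤ (H \ W).card ∧
    ∀ H' ∈ 𝓗, H' ⊆ W ∪ H → (H \ W).card ≤ (H' \ W).card)).image (fun H => H \ W)

/-- Every member contains a small fragment of a member or a big minimal fragment. -/
theorem frag_dichotomy (𝓗 : Finset (Finset X)) (s : ℕ) (W H : Finset X) (hH : H ∈ 𝓗) :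
    ∃ H' ∈ 𝓗, H' \ W ⊆ H ∧ ((H' \ W).card < s ∨ H' \ W ∈ bigFrag 𝓗 s W) := by
  obtain ⟨H', hH', hmin⟩ := exists_min_image (𝓗.filter (fun H' => H' ⊆ W ∪ H))
    (fun H' => (H' \ W).card) ⟨H, mem_filter.2 ⟨hH, subset_union_right⟩⟩
  rw [mem_filter] at hH'
  refine ⟨H', hH'.1, ?_, ?_⟩
  · intro x hx
    rw [mem_sdiff] at hx
    have := hH'.2 hx.1
    rw [mem_union] at this
    tauto
  · by_cases hs : (H' \ W).card < s
    · exact Or.inl hs
    · right
      refine mem_image.2 ⟨H', mem_filter.2 ⟨hH'.1, not_lt.1 hs, ?_⟩, rfl⟩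
      intro H'' hH'' hsub
      refine hmin H'' (mem_filter.2 ⟨hH'', ?_⟩)
      intro x hx
      have h1 := hsub hx
      rw [mem_union] at h1 ⊢
      rcases h1 with h1 | h1
      · exact Or.inl h1
      · have := hH'.2 h1
        rw [mem_union] at this
        exact this

/-- A choice of a member of `𝓗` inside `Z`. -/
noncomputable def pick (𝓗 : Finset (Finset X)) (Z : Finset X) : Finset X :=
  open Classical in
  if h : ∃ H ∈ 𝓗, H ⊆ Z then h.choose else ∅

theorem pick_spec {𝓗 : Finset (Finset X)} {Z : Finset X} (h : ∃ H ∈ 𝓗, H ⊆ Z) :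
    pick 𝓗 Z ∈ 𝓗 ∧ pick 𝓗 Z ⊆ Z := by
  unfold pick
  rw [dif_pos h]
  exact h.choose_spec

theorem bigFrag_subset_pick {𝓗 : Finset (Finset X)} {s : ℕ} {W T : Finset X}
    (hT : T ∈ bigFrag 𝓗 s W) : Disjoint W T ∧ s ≤ T.card ∧ T ⊆ pick 𝓗 (W ∪ T) ∧
      pick 𝓗 (W ∪ T) ∈ 𝓗 := by
  unfold bigFrag at hT
  obtain ⟨H, hH, rfl⟩ := mem_image.1 hT
  rw [mem_filter] at hH
  obtain ⟨hH, hs, hmin⟩ := hH
  have hU : W ∪ H \ W = W ∪ H := union_sdiff_self_eq_union
  have hp := pick_spec (𝓗 := 𝓗) (Z := W ∪ H \ W) ⟨H, hH, by rw [hU]; exact subset_union_right⟩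
  refine ⟨disjoint_sdiff, hs, ?_, hp.1⟩
  have h1 := hmin _ hp.1 (by rw [← hU]; exact hp.2)
  have h2 : pick 𝓗 (W ∪ H \ W) \ W ⊆ H \ W := by
    intro x hx
    rw [mem_sdiff] at hx
    have := hp.2 hx.1
    rw [mem_union] at this
    tauto
  have h3 : pick 𝓗 (W ∪ H \ W) \ W = H \ W := eq_of_subset_of_card_le h2 h1
  calc H \ W = pick 𝓗 (W ∪ H \ W) \ W := h3.symm
    _ ⊆ _ := sdiff_subset

theorem mu_switch {B p : ℝ} (hB : 0 < B) (hp : 0 < p) (hq : B * p ≤ 1) {W T : Finset X}
    (hd : Disjoint W T) : mu (B * p) W * p ^ T.card ≤ mu (B * p) (W ∪ T) * (1 / B) ^ T.card := by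
  unfold mu
  have hq0 : 0 < B * p := mul_pos hB hp
  have h1 : (univ \ W).card = (univ \ (W ∪ T)).card + T.card := by
    have h2 := card_sdiff_add_card_eq_card (subset_univ W)
    have h3 := card_sdiff_add_card_eq_card (subset_univ (W ∪ T))
    rw [card_union_of_disjoint hd] at h3
    omega
  rw [h1, card_union_of_disjoint hd, pow_add, pow_add]
  have h4 : (1 - B * p) ^ T.card * p ^ T.card ≤ (B * p) ^ T.card * (1 / B) ^ T.card := by
    rw [← mul_pow, ← mul_pow]
    refine pow_le_pow_left₀ (mul_nonneg (by linarith) hp.le) ?_ _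
    have : B * p * (1 / B) = p := by field_simp
    rw [this]
    nlinarith
  have h5 : 0 ≤ (B * p) ^ W.card * (1 - B * p) ^ (univ \ (W ∪ T)).card :=
    mul_nonneg (pow_nonneg hq0.le _) (pow_nonneg (by linarith) _)
  calc (B * p) ^ W.card * ((1 - B * p) ^ (univ \ (W ∪ T)).card * (1 - B * p) ^ T.card) *
        p ^ T.card
      = ((B * p) ^ W.card * (1 - B * p) ^ (univ \ (W ∪ T)).card) *
        ((1 - B * p) ^ T.card * p ^ T.card) := by ring
    _ ≤ ((B * p) ^ W.card * (1 - B * p) ^ (univ \ (W ∪ T)).card) *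
        ((B * p) ^ T.card * (1 / B) ^ T.card) := mul_le_mul_of_nonneg_left h4 h5
    _ = _ := by ring

/-- Expected cost of the big minimal fragments. -/
theorem sum_mu_bigFrag {B p : ℝ} (hB : 1 ≤ B) (hp : 0 < p) (hq : B * p ≤ 1)
    (𝓗 : Finset (Finset X)) (s k : ℕ) (hk : ∀ H ∈ 𝓗, H.card ≤ k) :
    ∑ W : Finset X, mu (B * p) W * cost p (bigFrag 𝓗 s W) ≤ 2 ^ k * (1 / B) ^ s := by
  have hB0 : 0 < B := by linarith
  have hq0 : 0 ≤ B * p := by positivity
  set P : Finset ((_ : Finset X) × Finset X) := univ.sigma (fun W => bigFrag 𝓗 s W) with hP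
  set Q : Finset ((_ : Finset X) × Finset X) :=
    univ.sigma (fun Z => ((pick 𝓗 Z).powerset.filter (fun T => s ≤ T.card ∧ pick 𝓗 Z ∈ 𝓗)))
    with hQ
  calc ∑ W : Finset X, mu (B * p) W * cost p (bigFrag 𝓗 s W)
      = ∑ x ∈ P, mu (B * p) x.1 * p ^ x.2.card := by
        rw [hP, sum_sigma]
        refine sum_congr rfl fun W _ => ?_
        rw [cost, mul_sum]
    _ ≤ ∑ x ∈ P, mu (B * p) (x.1 ∪ x.2) * (1 / B) ^ x.2.card := by
        refine sum_le_sum fun x hx => ?_
        rw [hP, mem_sigma] at hx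
        exact mu_switch hB0 hp hq (bigFrag_subset_pick hx.2).1
    _ = ∑ y ∈ P.image (fun x => (⟨x.1 ∪ x.2, x.2⟩ : (_ : Finset X) × Finset X)),
          mu (B * p) y.1 * (1 / B) ^ y.2.card := by
        rw [sum_image]
        rintro ⟨W, T⟩ hx ⟨W', T'⟩ hx' h
        simp only [hP, coe_sigma, Set.mem_sigma_iff, mem_coe, mem_univ, true_and] at hx hx'
        have h1 := (bigFrag_subset_pick hx).1
        have h2 := (bigFrag_subset_pick hx').1
        simp only [Sigma.mk.injEq, heq_eq_eq] at h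
        obtain ⟨h3, h4⟩ := h
        subst h4
        have h5 : W = W' := by
          have e1 : (W ∪ T) \ T = W := by
            rw [union_sdiff_right]; exact sdiff_eq_self_of_disjoint h1
          have e2 : (W' ∪ T) \ T = W' := by
            rw [union_sdiff_right]; exact sdiff_eq_self_of_disjoint h2
          rw [← e1, ← e2, h3]
        subst h5
        rfl
    _ ≤ ∑ y ∈ Q, mu (B * p) y.1 * (1 / B) ^ y.2.card := by
        refine sum_le_sum_of_subset_of_nonneg ?_ fun y _ _ =>
          mul_nonneg (mu_nonneg hq0 hq _) (by positivity)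
        intro y hy
        obtain ⟨x, hx, rfl⟩ := mem_image.1 hy
        rw [hP, mem_sigma] at hx
        have := bigFrag_subset_pick hx.2
        rw [hQ, mem_sigma]
        refine ⟨mem_univ _, mem_filter.2 ⟨mem_powerset.2 this.2.2.1, this.2.1, this.2.2.2⟩⟩
    _ = ∑ Z : Finset X, ∑ T ∈ ((pick 𝓗 Z).powerset.filter
          (fun T => s ≤ T.card ∧ pick 𝓗 Z ∈ 𝓗)), mu (B * p) Z * (1 / B) ^ T.card := by
        rw [hQ, sum_sigma]
    _ ≤ ∑ Z : Finset X, mu (B * p) Z * (2 ^ k * (1 / B) ^ s) := by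
        refine sum_le_sum fun Z _ => ?_
        rw [← mul_sum]
        refine mul_le_mul_of_nonneg_left ?_ (mu_nonneg hq0 hq _)
        by_cases hZ : pick 𝓗 Z ∈ 𝓗
        · calc ∑ T ∈ ((pick 𝓗 Z).powerset.filter
              (fun T => s ≤ T.card ∧ pick 𝓗 Z ∈ 𝓗)), (1 / B) ^ T.card
              ≤ ∑ T ∈ ((pick 𝓗 Z).powerset.filter
              (fun T => s ≤ T.card ∧ pick 𝓗 Z ∈ 𝓗)), (1 / B) ^ s := by
                refine sum_le_sum fun T hT => ?_
                have := (mem_filter.1 hT).2.1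
                refine pow_le_pow_of_le_one (by positivity) ?_ this
                rw [div_le_one hB0]; exact hB
            _ ≤ ∑ T ∈ (pick 𝓗 Z).powerset, (1 / B) ^ s :=
                sum_le_sum_of_subset_of_nonneg (filter_subset _ _)
                  fun _ _ _ => by positivity
            _ = 2 ^ (pick 𝓗 Z).card * (1 / B) ^ s := by
                rw [sum_const, card_powerset, nsmul_eq_mul]; push_cast; ring
            _ ≤ 2 ^ k * (1 / B) ^ s := by
                refine mul_le_mul_of_nonneg_right ?_ (by positivity)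
                exact pow_le_pow_right₀ (by norm_num) (hk _ hZ)
        · rw [sum_eq_zero]
          · positivity
          · intro T hT
            exact absurd (mem_filter.1 hT).2.2 hZ
    _ = 2 ^ k * (1 / B) ^ s := by rw [← sum_mul, sum_mu, one_mul]

/-- Derandomised Park-Pham: if all members of `𝓗` have fewer than `2^m` elements and `g` is a
fractional cover of `𝓗`, then `𝓗` has a cover of cost at most
`∑_{i<m} (4/B)^{2^i} + w(g, m B p)`. -/
theorem park_pham {B p : ℝ} (hB : 1 ≤ B) (hp : 0 < p) (hq : B * p ≤ 1) (m : ℕ) :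
    ∀ (𝓗 : Finset (Finset X)) (g : Finset X → ℝ), (∀ S, 0 ≤ g S) →
      (∀ H ∈ 𝓗, H.card < 2 ^ m) → (∀ H ∈ 𝓗, 1 ≤ ∑ S ∈ H.powerset, g S) →
      ∃ G : Finset (Finset X), (∀ H ∈ 𝓗, ∃ S ∈ G, S ⊆ H) ∧
        cost p G ≤ ∑ i ∈ range m, (4 / B) ^ (2 ^ i) + fcost g (m * (B * p)) := by
  have hB0 : 0 < B := by linarith
  have hq0 : 0 ≤ B * p := by positivity
  induction m with
  | zero =>
    intro 𝓗 g hg hc hcov
    rcases 𝓗.eq_empty_or_nonempty with h | ⟨H, hH⟩
    · refine ⟨∅, by simp [h], ?_⟩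
      simp only [cost, sum_empty, range_zero, zero_add]
      exact sum_nonneg fun S _ => mul_nonneg (hg S) (by positivity)
    · have hH0 : H = ∅ := by
        have := hc H hH
        simpa using this
      subst hH0
      have h1 := hcov ∅ hH
      rw [powerset_empty, sum_singleton] at h1
      refine ⟨{∅}, fun H _ => ⟨∅, mem_singleton_self _, empty_subset _⟩, ?_⟩
      simp only [cost, sum_singleton, card_empty, pow_zero, range_zero, sum_empty, zero_add,
        CharP.cast_eq_zero, zero_mul]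
      calc (1 : ℝ) ≤ g ∅ * 0 ^ (∅ : Finset X).card := by simpa using h1
        _ ≤ fcost g 0 := by
          unfold fcost
          exact single_le_sum (f := fun S : Finset X => g S * (0 : ℝ) ^ S.card)
            (fun S _ => mul_nonneg (hg S) (by positivity)) (mem_univ ∅)
  | succ m ih =>
    intro 𝓗 g hg hc hcov
    -- choose `W`
    have hex := exists_le_of_mu (X := X) hq0 hq
      (fun W => cost p (bigFrag 𝓗 (2 ^ m) W) + fcost (frag g W) (m * (B * p)))
      ((4 / B) ^ (2 ^ m) + fcost g (B * p + m * (B * p))) (by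
        simp_rw [mul_add]
        rw [sum_add_distrib]
        refine add_le_add ?_ (sum_mu_fcost_frag hg hq0 hq (by positivity))
        refine (sum_mu_bigFrag hB hp hq 𝓗 (2 ^ m) (2 ^ (m + 1)) ?_).trans ?_
        · exact fun H hH => (hc H hH).le
        · rw [pow_succ 2 m, mul_comm (2 ^ m) 2, pow_mul, ← mul_pow]
          refine le_of_eq ?_
          norm_num [div_eq_mul_inv])
    obtain ⟨W, hW⟩ := hex
    obtain ⟨G, hG1, hG2⟩ := ih ((𝓗.image (fun H => H \ W)).filter (fun A => A.card < 2 ^ m))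
      (frag g W) (frag_nonneg hg W) (fun A hA => (mem_filter.1 hA).2) (by
        intro A hA
        obtain ⟨H, hH, rfl⟩ := mem_image.1 (mem_filter.1 hA).1
        exact frag_cover hg W H (hcov H hH))
    refine ⟨bigFrag 𝓗 (2 ^ m) W ∪ G, ?_, ?_⟩
    · intro H hH
      obtain ⟨H', hH', hsub, h | h⟩ := frag_dichotomy 𝓗 (2 ^ m) W H hH
      · obtain ⟨S, hS, hSH⟩ := hG1 (H' \ W)
          (mem_filter.2 ⟨mem_image.2 ⟨H', hH', rfl⟩, h⟩)
        exact ⟨S, mem_union_right _ hS, hSH.trans hsub⟩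
      · exact ⟨H' \ W, mem_union_left _ h, hsub⟩
    · have h1 : cost p (bigFrag 𝓗 (2 ^ m) W ∪ G) ≤ cost p (bigFrag 𝓗 (2 ^ m) W) + cost p G := by
        unfold cost
        rw [← sum_union_inter]
        have : 0 ≤ ∑ S ∈ bigFrag 𝓗 (2 ^ m) W ∩ G, p ^ S.card :=
          sum_nonneg fun S _ => by positivity
        linarith
      rw [sum_range_succ]
      have h2 : ((m + 1 : ℕ) : ℝ) * (B * p) = B * p + m * (B * p) := by push_cast; ring
      rw [h2]
      linarith

end Vale.Agent.P034
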