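import Vale.Agent.P034.Greedy

/-!
# P034: seeds (truncated tensor powers of a fractional cover)
-/

namespace Vale.Agent.P034

open Finset

variable {X : Type*} [Fintype X] [DecidableEq X]

/-- `f(W) = ∑_S g(S) p^{|S \ W|}`. -/
noncomputable def boost (g : Finset X → ℝ) (p : ℝ) (W : Finset X) : ℝ :=
  ∑ S : Finset X, g S * p ^ (S \ W).card

/-- Truncated tensor power of `g`: the weight of all sequences of length `j` all of whose
proper initial unions have small boost, and whose union is the given set. -/
noncomputable def tens (g : Finset X → ℝ) (p κ : ℝ) : ℕ → Finset X → ℝ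
  | 0, V => if V = ∅ then 1 else 0
  | j + 1, V => ∑ x ∈ (univ : Finset (Finset X × Finset X)).filter
      (fun x => x.1 ∪ x.2 = V ∧ boost g p x.1 < κ), tens g p κ j x.1 * g x.2

theorem tens_nonneg {g : Finset X → ℝ} (hg : ∀ S, 0 ≤ g S) (p κ : ℝ) (j : ℕ) (V : Finset X) :
    0 ≤ tens g p κ j V := by
  induction j generalizing V with
  | zero => unfold tens; split_ifs <;> norm_num
  | succ j ih => exact sum_nonneg fun x _ => mul_nonneg (ih _) (hg _)

theorem tens_support {g : Finset X → ℝ} {t : ℕ} (ht : ∀ S, g S ≠ 0 → S.card ≤ t) (p κ : ℝ)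
    (j : ℕ) (V : Finset X) (hV : tens g p κ j V ≠ 0) : V.card ≤ t * j := by
  induction j generalizing V with
  | zero =>
    unfold tens at hV
    by_cases h : V = ∅
    · simp [h]
    · simp [h] at hV
  | succ j ih =>
    unfold tens at hV
    obtain ⟨x, hx, hne⟩ := exists_ne_zero_of_sum_ne_zero hV
    have h1 := ih x.1 (left_ne_zero_of_mul hne)
    have h2 := ht x.2 (right_ne_zero_of_mul hne)
    have h3 := (mem_filter.1 hx).2.1
    rw [← h3]
    calc (x.1 ∪ x.2).card ≤ x.1.card + x.2.card := card_union_le _ _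
      _ ≤ t * (j + 1) := by rw [mul_add, mul_one]; omega

theorem tens_cost {g : Finset X → ℝ} (hg : ∀ S, 0 ≤ g S) {p κ : ℝ} (hp : 0 ≤ p) (hκ : 0 ≤ κ)
    (j : ℕ) : fcost (tens g p κ j) p ≤ κ ^ j := by
  induction j with
  | zero =>
    unfold fcost tens
    simp [ite_mul]
  | succ j ih =>
    have h0 : fcost (tens g p κ (j + 1)) p =
        ∑ x : Finset X × Finset X, if boost g p x.1 < κ then
          tens g p κ j x.1 * g x.2 * p ^ (x.1 ∪ x.2).card else 0 := by
      unfold fcost
      calc ∑ V : Finset X, tens g p κ (j + 1) V * p ^ V.card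
          = ∑ V : Finset X, ∑ x ∈ (univ : Finset (Finset X × Finset X)).filter
              (fun x => x.1 ∪ x.2 = V), (if boost g p x.1 < κ then
                tens g p κ j x.1 * g x.2 * p ^ (x.1 ∪ x.2).card else 0) := by
            refine sum_congr rfl fun V _ => ?_
            rw [tens, sum_mul, ← sum_filter, filter_filter]
            refine sum_congr rfl fun x hx => ?_
            rw [(mem_filter.1 hx).2.1]
        _ = _ := sum_fiberwise univ (fun x : Finset X × Finset X => x.1 ∪ x.2)
            (fun x => if boost g p x.1 < κ then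
                tens g p κ j x.1 * g x.2 * p ^ (x.1 ∪ x.2).card else 0)
    rw [h0, Fintype.sum_prod_type]
    calc ∑ W : Finset X, ∑ S : Finset X, (if boost g p W < κ then
            tens g p κ j W * g S * p ^ (W ∪ S).card else 0)
        ≤ ∑ W : Finset X, κ * (tens g p κ j W * p ^ W.card) := by
          refine sum_le_sum fun W _ => ?_
          split_ifs with hb
          · have h1 : ∀ S : Finset X, tens g p κ j W * g S * p ^ (W ∪ S).card =
                (tens g p κ j W * p ^ W.card) * (g S * p ^ (S \ W).card) := by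
              intro S
              have : (W ∪ S).card = W.card + (S \ W).card := by
                rw [← union_sdiff_self_eq_union, card_union_of_disjoint disjoint_sdiff]
              rw [this, pow_add]; ring
            simp_rw [h1]
            rw [← mul_sum, mul_comm κ]
            refine mul_le_mul_of_nonneg_left hb.le
              (mul_nonneg (tens_nonneg hg _ _ _ _) (by positivity))
          · rw [sum_const_zero]
            exact mul_nonneg hκ (mul_nonneg (tens_nonneg hg _ _ _ _) (by positivity))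
      _ = κ * fcost (tens g p κ j) p := by rw [← mul_sum, fcost]
      _ ≤ κ * κ ^ j := mul_le_mul_of_nonneg_left ih hκ
      _ = κ ^ (j + 1) := by ring

theorem tens_cover {g : Finset X → ℝ} (hg : ∀ S, 0 ≤ g S) {t : ℕ}
    (ht : ∀ S, g S ≠ 0 → S.card ≤ t) {p κ : ℝ} {r : ℕ} {H : Finset X}
    (hH : 1 ≤ ∑ S ∈ H.powerset, g S)
    (hseed : ∀ W ⊆ H, W.card ≤ t * r → boost g p W < κ) (j : ℕ) (hj : j ≤ r) :
    1 ≤ ∑ V ∈ H.powerset, tens g p κ j V := by
  induction j with
  | zero =>
    calc (1 : ℝ) = tens g p κ 0 ∅ := by simp [tens]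
      _ ≤ _ := single_le_sum (f := fun V => tens g p κ 0 V)
        (fun V _ => tens_nonneg hg p κ 0 V) (empty_mem_powerset H)
  | succ j ih =>
    have ih' := ih (by omega)
    have h1 : ∑ V ∈ H.powerset, tens g p κ (j + 1) V =
        ∑ x ∈ (univ : Finset (Finset X × Finset X)).filter
          (fun x => x.1 ∪ x.2 ∈ H.powerset ∧ boost g p x.1 < κ), tens g p κ j x.1 * g x.2 := by
      rw [← sum_fiberwise_of_maps_to (s := (univ : Finset (Finset X × Finset X)).filter
          (fun x => x.1 ∪ x.2 ∈ H.powerset ∧ boost g p x.1 < κ))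
        (t := H.powerset) (g := fun x => x.1 ∪ x.2) (fun x hx => (mem_filter.1 hx).2.1)]
      refine sum_congr rfl fun V hV => ?_
      rw [tens]
      refine sum_congr ?_ fun _ _ => rfl
      ext x
      simp only [mem_filter, mem_univ, true_and]
      constructor
      · rintro ⟨h, h'⟩; exact ⟨⟨h ▸ hV, h'⟩, h⟩
      · rintro ⟨⟨_, h'⟩, h⟩; exact ⟨h, h'⟩
    have h2 : ∑ x ∈ H.powerset ×ˢ H.powerset, tens g p κ j x.1 * g x.2 ≤
        ∑ x ∈ (univ : Finset (Finset X × Finset X)).filter
          (fun x => x.1 ∪ x.2 ∈ H.powerset ∧ boost g p x.1 < κ), tens g p κ j x.1 * g x.2 := by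
      rw [← sum_filter_add_sum_filter_not (H.powerset ×ˢ H.powerset)
        (fun x => tens g p κ j x.1 ≠ 0)]
      have h3 : ∑ x ∈ (H.powerset ×ˢ H.powerset).filter (fun x => ¬ tens g p κ j x.1 ≠ 0),
          tens g p κ j x.1 * g x.2 = 0 := by
        refine sum_eq_zero fun x hx => ?_
        have := (mem_filter.1 hx).2
        push Not at this
        rw [this, zero_mul]
      rw [h3, add_zero]
      refine sum_le_sum_of_subset_of_nonneg ?_ fun x _ _ =>
        mul_nonneg (tens_nonneg hg _ _ _ _) (hg _)
      intro x hx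
      rw [mem_filter, mem_product, mem_powerset, mem_powerset] at hx
      obtain ⟨⟨hx1, hx2⟩, hx3⟩ := hx
      refine mem_filter.2 ⟨mem_univ _, mem_powerset.2 (union_subset hx1 hx2), ?_⟩
      refine hseed x.1 hx1 ((tens_support ht p κ j x.1 hx3).trans ?_)
      exact Nat.mul_le_mul_left t (by omega)
    rw [h1]
    refine le_trans ?_ h2
    rw [sum_product]
    simp only
    simp_rw [← mul_sum]
    rw [← sum_mul]
    nlinarith

/-- The fractional cover of the seeds. -/
noncomputable def seedCover (g : Finset X → ℝ) (p κ : ℝ) : Finset X → ℝ :=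
  fun A => κ⁻¹ * ∑ S ∈ univ.filter (fun S => A ⊆ S), g S * p ^ (S \ A).card

theorem seedCover_nonneg {g : Finset X → ℝ} (hg : ∀ S, 0 ≤ g S) {p κ : ℝ} (hp : 0 ≤ p)
    (hκ : 0 ≤ κ) (A : Finset X) : 0 ≤ seedCover g p κ A :=
  mul_nonneg (inv_nonneg.2 hκ) (sum_nonneg fun S _ => mul_nonneg (hg S) (by positivity))

theorem seedCover_support {g : Finset X → ℝ} {t : ℕ} (ht : ∀ S, g S ≠ 0 → S.card ≤ t) (p κ : ℝ)
    (A : Finset X) (hA : seedCover g p κ A ≠ 0) : A.card ≤ t := by
  unfold seedCover at hA
  obtain ⟨S, hS, hne⟩ := exists_ne_zero_of_sum_ne_zero (right_ne_zero_of_mul hA)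
  exact (card_le_card (mem_filter.1 hS).2).trans (ht S (left_ne_zero_of_mul hne))

theorem seedCover_fcost (g : Finset X → ℝ) (p κ a : ℝ) :
    fcost (seedCover g p κ) a = κ⁻¹ * fcost g (p + a) := by
  unfold fcost seedCover
  calc ∑ A : Finset X, κ⁻¹ * (∑ S ∈ univ.filter (fun S => A ⊆ S), g S * p ^ (S \ A).card) *
        a ^ A.card
      = κ⁻¹ * ∑ A : Finset X, ∑ S : Finset X,
          if A ⊆ S then g S * (a ^ A.card * p ^ (S.card - A.card)) else 0 := by
        rw [mul_sum]
        refine sum_congr rfl fun A _ => ?_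
        rw [mul_assoc, sum_mul, sum_filter]
        congr 1
        refine sum_congr rfl fun S _ => ?_
        split_ifs with h
        · rw [card_sdiff_of_subset h]; ring
        · rfl
    _ = κ⁻¹ * ∑ S : Finset X, g S * (p + a) ^ S.card := by
        rw [sum_comm]
        congr 1
        refine sum_congr rfl fun S _ => ?_
        rw [← sum_filter, ← mul_sum]
        congr 1
        rw [add_comm p a, ← sum_pow_mul_eq_add_pow]
        refine sum_congr ?_ fun _ _ => rfl
        ext A
        simp

theorem seedCover_cover {g : Finset X → ℝ} (hg : ∀ S, 0 ≤ g S) {p κ : ℝ} (hp : 0 ≤ p)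
    (hκ : 0 < κ) {W : Finset X} (hW : κ ≤ boost g p W) :
    1 ≤ ∑ A ∈ W.powerset, seedCover g p κ A := by
  have h1 : boost g p W ≤ ∑ A ∈ W.powerset, ∑ S ∈ univ.filter (fun S => A ⊆ S),
      g S * p ^ (S \ A).card := by
    unfold boost
    calc ∑ S : Finset X, g S * p ^ (S \ W).card
        ≤ ∑ S : Finset X, ∑ A ∈ W.powerset, if A ⊆ S then g S * p ^ (S \ A).card else 0 := by
          refine sum_le_sum fun S _ => ?_
          have := single_le_sum (s := W.powerset)
            (f := fun A => if A ⊆ S then g S * p ^ (S \ A).card else 0)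
            (fun A _ => by
              split_ifs
              · exact mul_nonneg (hg S) (by positivity)
              · exact le_refl _) (mem_powerset.2 (inter_subset_right (s₁ := S) (s₂ := W)))
          simp only [inter_subset_left, if_true] at this
          rwa [sdiff_inter_self_left] at this
      _ = _ := by
          rw [sum_comm]
          refine sum_congr rfl fun A _ => ?_
          rw [sum_filter]
  unfold seedCover
  rw [← mul_sum]
  calc (1 : ℝ) = κ⁻¹ * κ := by rw [inv_mul_cancel₀ hκ.ne']
    _ ≤ _ := mul_le_mul_of_nonneg_left (hW.trans h1) (inv_nonneg.2 hκ.le)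

/-- The reduction lemma: up to a cheap cover, all members contain seeds. -/
theorem reduction {g : Finset X → ℝ} (hg : ∀ S, 0 ≤ g S) {t : ℕ}
    (ht : ∀ S, g S ≠ 0 → S.card ≤ t) {p κ : ℝ} (hp : 0 ≤ p) (hκ : 0 < κ) (r : ℕ)
    (𝓗 : Finset (Finset X)) (hH : ∀ H ∈ 𝓗, 1 ≤ ∑ S ∈ H.powerset, g S) :
    ∃ 𝓖 : Finset (Finset X),
      (∀ H ∈ 𝓗, (∃ S ∈ 𝓖, S ⊆ H) ∨ ∃ W ⊆ H, W.card ≤ t * r ∧ κ ≤ boost g p W) ∧
      cost p 𝓖 ≤ (1 + Real.log 𝓗.card) * κ ^ r := by
  classical
  set 𝓗' := 𝓗.filter (fun H => ∀ W ⊆ H, W.card ≤ t * r → boost g p W < κ) with h𝓗'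
  obtain ⟨G, hG1, hG2⟩ := greedy 𝓗' (tens g p κ r) (tens_nonneg hg p κ r)
    (fun H hH' => tens_cover hg ht (hH H (mem_filter.1 hH').1) (mem_filter.1 hH').2 r le_rfl) p hp
  refine ⟨G, ?_, ?_⟩
  · intro H hHm
    by_cases h : H ∈ 𝓗'
    · exact Or.inl (hG1 H h)
    · right
      have h2 : ¬ ∀ W ⊆ H, W.card ≤ t * r → boost g p W < κ :=
        fun h' => h (mem_filter.2 ⟨hHm, h'⟩)
      push Not at h2
      exact h2
  · have hlog : 0 ≤ Real.log (𝓗'.card : ℝ) := Real.log_natCast_nonneg _
    have hlog2 : Real.log (𝓗'.card : ℝ) ≤ Real.log 𝓗.card := by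
      rcases Nat.eq_zero_or_pos 𝓗'.card with h | h
      · rw [h]; simp only [Nat.cast_zero, Real.log_zero]; exact Real.log_natCast_nonneg _
      · refine Real.log_le_log (by exact_mod_cast h) ?_
        exact_mod_cast card_le_card (filter_subset _ _)
    have h0 : 0 ≤ fcost (tens g p κ r) p :=
      sum_nonneg fun S _ => mul_nonneg (tens_nonneg hg _ _ _ _) (by positivity)
    calc cost p G ≤ (1 + Real.log 𝓗'.card) * fcost (tens g p κ r) p := hG2
      _ ≤ (1 + Real.log 𝓗'.card) * κ ^ r :=
        mul_le_mul_of_nonneg_left (tens_cost hg hp hκ.le r) (by linarith)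
      _ ≤ (1 + Real.log 𝓗.card) * κ ^ r :=
        mul_le_mul_of_nonneg_right (by linarith) (by positivity)

/-- The number of sets of size at most `k` is at most `(n+1)^k`. -/
theorem card_small_sets (k : ℕ) :
    ((univ : Finset (Finset X)).filter (fun W => W.card ≤ k)).card ≤
      (Fintype.card X + 1) ^ k := by
  induction k with
  | zero =>
    have : (univ : Finset (Finset X)).filter (fun W => W.card ≤ 0) = {∅} := by
      ext W; simp
    rw [this]; simp
  | succ k ih =>
    have hsub : (univ : Finset (Finset X)).filter (fun W => W.card ≤ k + 1) ⊆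
        (((univ : Finset (Finset X)).filter (fun W => W.card ≤ k)) ×ˢ
          (univ : Finset (Option X))).image
          (fun x => match x.2 with
            | none => x.1
            | some a => insert a x.1) := by
      intro W hW
      have hW' := (mem_filter.1 hW).2
      rw [mem_image]
      rcases W.eq_empty_or_nonempty with h | ⟨a, ha⟩
      · exact ⟨(∅, none), by simp, by simp [h]⟩
      · refine ⟨(W.erase a, some a), ?_, ?_⟩
        · rw [mem_product]
          refine ⟨mem_filter.2 ⟨mem_univ _, ?_⟩, mem_univ _⟩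
          simp only
          rw [card_erase_of_mem ha]; omega
        · simp [insert_erase ha]
    calc _ ≤ _ := card_le_card hsub
      _ ≤ _ := card_image_le
      _ = ((univ : Finset (Finset X)).filter (fun W => W.card ≤ k)).card *
          (Fintype.card X + 1) := by
        rw [card_product, card_univ, Fintype.card_option]
      _ ≤ _ := by rw [pow_succ]; exact Nat.mul_le_mul_right _ ih

end Vale.Agent.P034
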