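import Vale.Agent.P034.Biased
import Vale.Agent.P034.Seeds

/-!
# P034: assembly
-/

namespace Vale.Agent.P034

open Finset

variable {X : Type*}

theorem cost_nonneg {p : ℝ} (hp : 0 ≤ p) (G : Finset (Finset X)) : 0 ≤ cost p G :=
  sum_nonneg fun _ _ => pow_nonneg hp _

theorem cost_union_le [DecidableEq X] {p : ℝ} (hp : 0 ≤ p) (G G' : Finset (Finset X)) :
    cost p (G ∪ G') ≤ cost p G + cost p G' := by
  unfold cost
  rw [← sum_union_inter]
  have : 0 ≤ ∑ S ∈ G ∩ G', p ^ S.card := sum_nonneg fun S _ => pow_nonneg hp _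
  linarith

theorem cost_biUnion_le [DecidableEq X] {ι : Type*} [DecidableEq ι] {p : ℝ} (hp : 0 ≤ p)
    (s : Finset ι) (G : ι → Finset (Finset X)) :
    cost p (s.biUnion G) ≤ ∑ i ∈ s, cost p (G i) := by
  induction s using Finset.induction_on with
  | empty => simp [cost]
  | insert a s ha ih =>
    rw [biUnion_insert, sum_insert ha]
    exact (cost_union_le hp _ _).trans (by linarith)

theorem cost_mono {p p' : ℝ} (hp : 0 ≤ p) (h : p ≤ p') (G : Finset (Finset X)) :
    cost p G ≤ cost p' G :=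
  sum_le_sum fun _ _ => pow_le_pow_left₀ hp h _

variable [Fintype X] [DecidableEq X]

/-- The rescaled `t`-uniform part of `g`. -/
noncomputable def part (g : Finset X → ℝ) (t : ℕ) : Finset X → ℝ :=
  fun S => if S.card = t then 2 ^ (t + 1) * g S else 0

/-- The cost at `P` of the `t`-uniform part of `g`. -/
noncomputable def pw (g : Finset X → ℝ) (P : ℝ) (t : ℕ) : ℝ :=
  ∑ S ∈ univ.filter (fun S : Finset X => S.card = t), g S * P ^ S.card

theorem part_nonneg {g : Finset X → ℝ} (hg : ∀ S, 0 ≤ g S) (t : ℕ) (S : Finset X) :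
    0 ≤ part g t S := by
  unfold part
  split_ifs
  · exact mul_nonneg (by positivity) (hg S)
  · exact le_rfl

theorem part_support (g : Finset X → ℝ) (t : ℕ) (S : Finset X) (h : part g t S ≠ 0) :
    S.card ≤ t := by
  unfold part at h
  by_contra hc
  rw [if_neg (by omega)] at h
  exact h rfl

theorem pw_nonneg {g : Finset X → ℝ} (hg : ∀ S, 0 ≤ g S) {P : ℝ} (hP : 0 ≤ P) (t : ℕ) :
    0 ≤ pw g P t := sum_nonneg fun S _ => mul_nonneg (hg S) (by positivity)

theorem fcost_part (g : Finset X → ℝ) (P c : ℝ) (t : ℕ) :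
    fcost (part g t) (c * P) = 2 ^ (t + 1) * c ^ t * pw g P t := by
  unfold fcost part pw
  rw [mul_sum, sum_filter]
  refine sum_congr rfl fun S _ => ?_
  by_cases h : S.card = t
  · simp only [h, if_true]
    rw [mul_pow]; ring
  · simp only [h, if_false, zero_mul]

theorem sum_pw_le {g : Finset X → ℝ} (hg : ∀ S, 0 ≤ g S) {P : ℝ} (hP : 0 ≤ P) :
    ∑ s ∈ range (Fintype.card X), pw g P (s + 1) ≤ fcost g P := by
  have h : fcost g P = ∑ t ∈ range (Fintype.card X + 1), pw g P t := by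
    unfold fcost pw
    rw [← sum_fiberwise_of_maps_to (s := (univ : Finset (Finset X)))
      (t := range (Fintype.card X + 1)) (g := fun S => S.card)
      (fun S _ => mem_range.2 (Nat.lt_succ_of_le (card_le_univ S)))]
  rw [h, sum_range_succ']
  have := pw_nonneg hg hP (X := X) 0
  linarith

/-- Every member of `F` is heavy for some uniform part. -/
theorem exists_part {g : Finset X → ℝ} (hg : ∀ S, 0 ≤ g S) (h0 : g ∅ ≤ 1 / 2) {H : Finset X}
    (hH : 1 ≤ ∑ S ∈ H.powerset, g S) :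
    ∃ s ∈ range (Fintype.card X), 1 ≤ ∑ S ∈ H.powerset, part g (s + 1) S := by
  by_contra hcon
  push Not at hcon
  have h1 : ∑ S ∈ H.powerset, g S =
      ∑ t ∈ range (Fintype.card X + 1), ∑ S ∈ H.powerset.filter (fun S => S.card = t), g S := by
    rw [← sum_fiberwise_of_maps_to (s := H.powerset)
      (t := range (Fintype.card X + 1)) (g := fun S => S.card)
      (fun S _ => mem_range.2 (Nat.lt_succ_of_le (card_le_univ S)))]
  rw [sum_range_succ'] at h1
  have h2 : ∑ S ∈ H.powerset.filter (fun S => S.card = 0), g S = g ∅ := by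
    have : H.powerset.filter (fun S => S.card = 0) = {∅} := by
      ext S
      simp only [mem_filter, mem_powerset, card_eq_zero, mem_singleton]
      constructor
      · rintro ⟨_, h⟩; exact h
      · rintro rfl; exact ⟨empty_subset _, rfl⟩
    rw [this, sum_singleton]
  have h3 : ∀ s ∈ range (Fintype.card X),
      ∑ S ∈ H.powerset.filter (fun S => S.card = s + 1), g S ≤ (1 / 2) ^ (s + 2) := by
    intro s hs
    have h4 := hcon s hs
    have h5 : ∑ S ∈ H.powerset, part g (s + 1) S =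
        2 ^ (s + 2) * ∑ S ∈ H.powerset.filter (fun S => S.card = s + 1), g S := by
      unfold part
      rw [mul_sum, sum_filter]
    rw [h5] at h4
    have h6 : (0 : ℝ) < 2 ^ (s + 2) := by positivity
    rw [one_div, inv_pow, ← one_div, le_div_iff₀ h6]
    linarith
  have h7 : ∑ s ∈ range (Fintype.card X), ((1 : ℝ) / 2) ^ (s + 2) < 1 / 2 := by
    have h8 : ∀ n : ℕ, ∑ s ∈ range n, ((1 : ℝ) / 2) ^ (s + 2) = 1 / 2 - (1 / 2) ^ (n + 1) := by
      intro n
      induction n with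
      | zero => norm_num
      | succ n ih => rw [sum_range_succ, ih]; ring
    rw [h8]
    have : (0 : ℝ) < (1 / 2) ^ (Fintype.card X + 1) := by positivity
    linarith
  have h9 := sum_le_sum h3
  rw [h1, h2] at hH
  linarith

/-- The double seed cover of the `t`-uniform part. -/
noncomputable def dbl (g : Finset X → ℝ) (p : ℝ) (t : ℕ) : Finset X → ℝ :=
  seedCover (seedCover (part g t) p ((1 / 8) ^ t)) p ((1 / 8) ^ t)

theorem pow_ineq1 {r t : ℕ} (hr : 1 ≤ r) (ht : 1 ≤ t) :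
    (2 : ℝ) ^ r * ((1 / 8) ^ t) ^ r ≤ (1 / 2) ^ t := by
  have h1 : ((1 : ℝ) / 8) = (1 / 2) ^ 3 := by norm_num
  have h2 : (2 : ℝ) ^ r = ((1 / 2) ^ r)⁻¹ := by
    rw [one_div, inv_pow, inv_inv]
  rw [h1, h2, ← pow_mul, ← pow_mul, inv_mul_le_iff₀ (by positivity), ← pow_add]
  refine pow_le_pow_of_le_one (by norm_num) (by norm_num) ?_
  nlinarith [Nat.mul_le_mul hr ht]

theorem pow_ineq2 {R t : ℕ} (hR : 1 ≤ R) (ht : 1 ≤ t) :
    (2 : ℝ) ^ t * 2 ^ R * ((1 / 8) ^ t) ^ R ≤ (1 / 2) ^ t := by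
  have h1 : ((1 : ℝ) / 8) = (1 / 2) ^ 3 := by norm_num
  have h2 : (2 : ℝ) ^ t * 2 ^ R = ((1 / 2) ^ (t + R))⁻¹ := by
    rw [one_div, inv_pow, inv_inv, pow_add]
  rw [h1, h2, ← pow_mul, ← pow_mul, inv_mul_le_iff₀ (by positivity), ← pow_add]
  refine pow_le_pow_of_le_one (by norm_num) (by norm_num) ?_
  nlinarith [Nat.mul_le_mul hR ht]

theorem log_card_le_of_le_pow {n k a : ℕ} {b : ℝ} (h : a ≤ n ^ k) (hb : Real.log n ≤ b)
    : Real.log a ≤ k * b := by
  rcases Nat.eq_zero_or_pos a with h0 | h0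
  · rw [h0]; simp only [Nat.cast_zero, Real.log_zero]
    exact mul_nonneg (Nat.cast_nonneg _) ((Real.log_natCast_nonneg n).trans hb)
  · calc Real.log a ≤ Real.log ((n : ℝ) ^ k) := by
          refine Real.log_le_log (by exact_mod_cast h0) ?_
          exact_mod_cast h
      _ = k * Real.log n := by rw [Real.log_pow]
      _ ≤ k * b := mul_le_mul_of_nonneg_left hb (Nat.cast_nonneg _)

/-- One level `t` of the argument. -/
theorem level {F : Finset (Finset X)} {g : Finset X → ℝ} (hg : ∀ S, 0 ≤ g S) {P : ℝ}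
    (hP : 0 < P) {r R t : ℕ} (hr : 16 * (Fintype.card X + 1) ≤ 2 ^ r)
    (hR : 16 * (1 + r ^ 2) ≤ 2 ^ R) (ht : 1 ≤ t) :
    ∃ 𝓖 : Finset (Finset X), cost (P / 6144) 𝓖 ≤ 1 / 8 * (1 / 2) ^ t + 1 / 8 * pw g P t ∧
      ∀ H ∈ F, 1 ≤ ∑ S ∈ H.powerset, part g t S →
        (∃ S ∈ 𝓖, S ⊆ H) ∨ (t < R ∧ ∃ W ⊆ H, W.card ≤ R * R ∧
          1 ≤ ∑ A ∈ W.powerset, dbl g (P / 6144) t A) := by
  classical
  set p := P / 6144 with hpdef
  have hp : 0 < p := by rw [hpdef]; positivity
  set κ : ℝ := (1 / 8) ^ t with hκdef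
  have hκ : 0 < κ := by rw [hκdef]; positivity
  have hr1 : 1 ≤ r := by
    by_contra h
    have : r = 0 := by omega
    rw [this] at hr
    omega
  have hR1 : 1 ≤ R := by
    by_contra h
    have : R = 0 := by omega
    rw [this] at hR
    simp at hR
    omega
  have hrR : (16 * ((Fintype.card X : ℝ) + 1)) ≤ 2 ^ r := by exact_mod_cast hr
  have hRR : (16 * (1 + (r : ℝ) ^ 2)) ≤ 2 ^ R := by exact_mod_cast hR
  -- first reduction
  set 𝓗 := F.filter (fun H => 1 ≤ ∑ S ∈ H.powerset, part g t S) with h𝓗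
  obtain ⟨G1, hG1, hG1c⟩ := reduction (part_nonneg hg t) (part_support g t) hp.le hκ r 𝓗
    (fun H hH => (mem_filter.1 hH).2)
  have hc1 : cost p G1 ≤ 1 / 16 * (1 / 2) ^ t := by
    have h1 : Real.log 𝓗.card ≤ Fintype.card X := by
      have h2 : 𝓗.card ≤ 2 ^ Fintype.card X := by
        calc 𝓗.card ≤ (univ : Finset (Finset X)).card := card_le_card (subset_univ _)
          _ = 2 ^ Fintype.card X := by rw [card_univ, Fintype.card_finset]
      have h3 : Real.log ((2 : ℕ) : ℝ) ≤ 1 := by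
        have := Real.log_two_lt_d9
        push_cast
        linarith
      have := log_card_le_of_le_pow h2 h3
      linarith
    calc cost p G1 ≤ (1 + Real.log 𝓗.card) * κ ^ r := hG1c
      _ ≤ (1 / 16 * 2 ^ r) * κ ^ r := by
          refine mul_le_mul_of_nonneg_right ?_ (by positivity)
          linarith
      _ = 1 / 16 * (2 ^ r * κ ^ r) := by ring
      _ ≤ 1 / 16 * (1 / 2) ^ t := mul_le_mul_of_nonneg_left (pow_ineq1 hr1 ht) (by norm_num)
  -- the seeds
  set 𝓢 := (univ : Finset (Finset X)).filter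
    (fun W => W.card ≤ t * r ∧ κ ≤ boost (part g t) p W) with h𝓢
  have hlogS : 1 + Real.log 𝓢.card ≤ 2 ^ t * 2 ^ R * (1 / 16) := by
    have h1 : 𝓢.card ≤ (Fintype.card X + 1) ^ (t * r) := by
      refine le_trans (card_le_card ?_) (card_small_sets (X := X) (t * r))
      intro W hW
      exact mem_filter.2 ⟨mem_univ _, (mem_filter.1 hW).2.1⟩
    have h2 : Real.log ((Fintype.card X + 1 : ℕ) : ℝ) ≤ r := by
      have h3 : ((Fintype.card X + 1 : ℕ) : ℝ) ≤ Real.exp r := by
        calc ((Fintype.card X + 1 : ℕ) : ℝ) ≤ 2 ^ r := by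
              push_cast
              have : (0 : ℝ) ≤ Fintype.card X := Nat.cast_nonneg _
              linarith
          _ ≤ Real.exp 1 ^ r := by
              refine pow_le_pow_left₀ (by norm_num) ?_ _
              have := Real.add_one_le_exp (1 : ℝ)
              linarith
          _ = Real.exp r := by rw [← Real.exp_nat_mul, mul_one]
      calc Real.log ((Fintype.card X + 1 : ℕ) : ℝ) ≤ Real.log (Real.exp r) :=
            Real.log_le_log (by positivity) h3
        _ = r := Real.log_exp _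
    have h4 := log_card_le_of_le_pow h1 h2
    have h5 : (t : ℝ) ≤ 2 ^ t := by exact_mod_cast Nat.lt_two_pow_self.le
    have ht' : (1 : ℝ) ≤ t := by exact_mod_cast ht
    push_cast at h4
    calc 1 + Real.log 𝓢.card ≤ 1 + t * r * r := by linarith
      _ ≤ t * (1 + (r : ℝ) ^ 2) := by nlinarith
      _ ≤ 2 ^ t * (1 / 16 * 2 ^ R) := by
          refine mul_le_mul h5 (by linarith) (by positivity) (by positivity)
      _ = 2 ^ t * 2 ^ R * (1 / 16) := by ring
  set g1 := seedCover (part g t) p κ with hg1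
  have hg1n : ∀ S, 0 ≤ g1 S := seedCover_nonneg (part_nonneg hg t) hp.le hκ.le
  have hg1s : ∀ S, g1 S ≠ 0 → S.card ≤ t := seedCover_support (part_support g t) p κ
  have hg1c : ∀ W ∈ 𝓢, 1 ≤ ∑ A ∈ W.powerset, g1 A := fun W hW =>
    seedCover_cover (part_nonneg hg t) hp.le hκ (mem_filter.1 hW).2.2
  have hpw := pw_nonneg hg hP.le (X := X) t
  by_cases htR : t < R
  · obtain ⟨G2, hG2, hG2c⟩ := reduction hg1n hg1s hp.le hκ R 𝓢 hg1c
    have hc2 : cost p G2 ≤ 1 / 16 * (1 / 2) ^ t := by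
      calc cost p G2 ≤ (1 + Real.log 𝓢.card) * κ ^ R := hG2c
        _ ≤ (2 ^ t * 2 ^ R * (1 / 16)) * κ ^ R :=
          mul_le_mul_of_nonneg_right hlogS (by positivity)
        _ = 1 / 16 * (2 ^ t * 2 ^ R * κ ^ R) := by ring
        _ ≤ 1 / 16 * (1 / 2) ^ t := mul_le_mul_of_nonneg_left (pow_ineq2 hR1 ht) (by norm_num)
    refine ⟨G1 ∪ G2, ?_, ?_⟩
    · have := cost_union_le hp.le G1 G2
      linarith
    · intro H hH hHt
      rcases hG1 H (mem_filter.2 ⟨hH, hHt⟩) with ⟨S, hS, hSH⟩ | ⟨W, hWH, hWc, hWb⟩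
      · exact Or.inl ⟨S, mem_union_left _ hS, hSH⟩
      · rcases hG2 W (mem_filter.2 ⟨mem_univ _, hWc, hWb⟩) with ⟨S, hS, hSW⟩ | ⟨V, hVW, hVc, hVb⟩
        · exact Or.inl ⟨S, mem_union_right _ hS, hSW.trans hWH⟩
        · refine Or.inr ⟨htR, V, hVW.trans hWH, ?_, ?_⟩
          · exact hVc.trans (Nat.mul_le_mul_right _ htR.le)
          · exact seedCover_cover hg1n hp.le hκ hVb
  · obtain ⟨G2, hG2, hG2c⟩ := greedy 𝓢 g1 hg1n hg1c p hp.le
    have hf : fcost g1 p = 2 * (1 / 192) ^ t * pw g P t := by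
      rw [hg1, seedCover_fcost]
      have : p + p = (1 / 3072) * P := by rw [hpdef]; ring
      rw [this, fcost_part, hκdef]
      have h1 : ((1 / 8 : ℝ) ^ t)⁻¹ = 8 ^ t := by rw [one_div, inv_pow, inv_inv]
      rw [h1, pow_succ]
      have h2 : (8 : ℝ) ^ t * (2 ^ t * 2 * (1 / 3072) ^ t * pw g P t) =
          2 * (8 * 2 * (1 / 3072)) ^ t * pw g P t := by
        rw [mul_pow, mul_pow]; ring
      rw [h2]
      have h3 : (8 * 2 * (1 / 3072) : ℝ) = 1 / 192 := by norm_num
      rw [h3]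
    have hc2 : cost p G2 ≤ 1 / 8 * pw g P t := by
      have hge : R ≤ t := not_lt.1 htR
      calc cost p G2 ≤ (1 + Real.log 𝓢.card) * fcost g1 p := hG2c
        _ ≤ (2 ^ t * 2 ^ R * (1 / 16)) * fcost g1 p := by
          refine mul_le_mul_of_nonneg_right hlogS ?_
          rw [hf]; positivity
        _ ≤ (2 ^ t * 2 ^ t * (1 / 16)) * fcost g1 p := by
          have h0 : 0 ≤ fcost g1 p := by rw [hf]; positivity
          refine mul_le_mul_of_nonneg_right ?_ h0
          refine mul_le_mul_of_nonneg_right ?_ (by norm_num)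
          refine mul_le_mul_of_nonneg_left ?_ (by positivity)
          exact pow_le_pow_right₀ (by norm_num) hge
        _ = 1 / 8 * ((1 / 48) ^ t * pw g P t) := by
          rw [hf]
          have : ((1 : ℝ) / 48) = 2 * 2 * (1 / 192) := by norm_num
          rw [this, mul_pow, mul_pow]; ring
        _ ≤ 1 / 8 * pw g P t := by
          refine mul_le_mul_of_nonneg_left ?_ (by norm_num)
          exact mul_le_of_le_one_left hpw (pow_le_one₀ (by norm_num) (by norm_num))
    refine ⟨G1 ∪ G2, ?_, ?_⟩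
    · have := cost_union_le hp.le G1 G2
      have h3 : (0 : ℝ) ≤ (1 / 2) ^ t := by positivity
      linarith
    · intro H hH hHt
      rcases hG1 H (mem_filter.2 ⟨hH, hHt⟩) with ⟨S, hS, hSH⟩ | ⟨W, hWH, hWc, hWb⟩
      · exact Or.inl ⟨S, mem_union_left _ hS, hSH⟩
      · obtain ⟨S, hS, hSW⟩ := hG2 W (mem_filter.2 ⟨mem_univ _, hWc, hWb⟩)
        exact Or.inl ⟨S, mem_union_right _ hS, hSW.trans hWH⟩

theorem sum_sixteen (m : ℕ) : ∑ i ∈ range m, ((4 : ℝ) / 64) ^ (2 ^ i) ≤ 1 / 8 := by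
  have h1 : ∀ m : ℕ, ∑ i ∈ range m, ((4 : ℝ) / 64) ^ (i + 1) ≤ 1 / 15 - (4 / 64) ^ m / 15 := by
    intro m
    induction m with
    | zero => norm_num
    | succ m ih => rw [sum_range_succ]; rw [pow_succ]; linarith
  have h2 : ∑ i ∈ range m, ((4 : ℝ) / 64) ^ (2 ^ i) ≤ ∑ i ∈ range m, ((4 : ℝ) / 64) ^ (i + 1) := by
    refine sum_le_sum fun i _ => ?_
    exact pow_le_pow_of_le_one (by norm_num) (by norm_num) Nat.lt_two_pow_self
  have h3 := h1 m
  have h4 : (0 : ℝ) ≤ (4 / 64) ^ m := by positivity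
  linarith

theorem fcost_dbl (g : Finset X → ℝ) (P : ℝ) (t : ℕ) :
    fcost (dbl g (P / 6144) t) (P / 6144) = 2 * (1 / 16) ^ t * pw g P t := by
  unfold dbl
  rw [seedCover_fcost, seedCover_fcost]
  have : P / 6144 + (P / 6144 + P / 6144) = (1 / 2048) * P := by ring
  rw [this, fcost_part]
  have h1 : ((1 / 8 : ℝ) ^ t)⁻¹ = 8 ^ t := by rw [one_div, inv_pow, inv_inv]
  rw [h1, pow_succ]
  have h3 : (1 / 16 : ℝ) = 8 * 8 * 2 * (1 / 2048) := by norm_num
  rw [h3, mul_pow, mul_pow, mul_pow]; ring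

theorem dbl_nonneg {g : Finset X → ℝ} (hg : ∀ S, 0 ≤ g S) {p : ℝ} (hp : 0 ≤ p) (t : ℕ)
    (A : Finset X) : 0 ≤ dbl g p t A :=
  seedCover_nonneg (seedCover_nonneg (part_nonneg hg t) hp (by positivity)) hp (by positivity) A

/-- The main covering theorem. -/
theorem core {F : Finset (Finset X)} {g : Finset X → ℝ} (hg : ∀ S, 0 ≤ g S)
    (hcov : ∀ H ∈ F, 1 ≤ ∑ S ∈ H.powerset, g S) {P : ℝ} (hP : 0 < P) (hP1 : P ≤ 1)
    (hw : fcost g P ≤ 1 / 2) {r R m : ℕ} (hr : 16 * (Fintype.card X + 1) ≤ 2 ^ r)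
    (hR : 16 * (1 + r ^ 2) ≤ 2 ^ R) (hm : R * R < 2 ^ m) :
    ∃ G : Finset (Finset X), (∀ H ∈ F, ∃ S ∈ G, S ⊆ H) ∧
      cost (P / (6144 * 64 * m)) G ≤ 1 / 2 := by
  classical
  set p := P / 6144 with hpdef
  have hp : 0 < p := by rw [hpdef]; positivity
  have hR1 : 1 ≤ R := by
    by_contra h
    have : R = 0 := by omega
    rw [this] at hR
    simp at hR
    omega
  have hm1 : 1 ≤ m := by
    by_contra h
    have : m = 0 := by omega
    rw [this] at hm
    nlinarith
  have hm1' : (1 : ℝ) ≤ m := by exact_mod_cast hm1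
  have hm0 : (0 : ℝ) < m := by linarith
  set p0 := P / (6144 * 64 * m) with hp0def
  have hp0 : 0 < p0 := by rw [hp0def]; positivity
  have hp0p : (m : ℝ) * (64 * p0) = p := by
    rw [hp0def, hpdef]; field_simp
  have h64 : 64 * p0 ≤ p := by
    rw [← hp0p]
    nlinarith
  have hp1 : p ≤ 1 := by rw [hpdef]; linarith
  have hp0le : p0 ≤ p := by linarith
  have h0 : g ∅ ≤ 1 / 2 := by
    refine le_trans ?_ hw
    calc g ∅ = g ∅ * P ^ (∅ : Finset X).card := by simp
      _ ≤ fcost g P := single_le_sum (f := fun S : Finset X => g S * P ^ S.card)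
            (fun S _ => mul_nonneg (hg S) (by positivity)) (mem_univ ∅)
  choose Gt hGtc hGt using fun s : ℕ =>
    level (F := F) hg hP (r := r) (R := R) (t := s + 1) hr hR (by omega)
  -- merged cover
  set g2 : Finset X → ℝ := fun A => ∑ s ∈ range (Fintype.card X), dbl g p (s + 1) A with hg2
  have hg2n : ∀ A, 0 ≤ g2 A := fun A => sum_nonneg fun s _ => dbl_nonneg hg hp.le _ _
  set 𝓢 := (univ : Finset (Finset X)).filter
    (fun W => W.card ≤ R * R ∧ 1 ≤ ∑ A ∈ W.powerset, g2 A) with h𝓢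
  obtain ⟨G', hG', hG'c⟩ := park_pham (X := X) (B := 64) (p := p0) (by norm_num) hp0
    (by linarith) m 𝓢 g2 hg2n (fun W hW => lt_of_le_of_lt (mem_filter.1 hW).2.1 hm)
    (fun W hW => (mem_filter.1 hW).2.2)
  have hsum := sum_pw_le hg hP.le (X := X)
  have hf2 : fcost g2 p ≤ 1 / 16 := by
    calc fcost g2 p = ∑ s ∈ range (Fintype.card X), fcost (dbl g p (s + 1)) p := by
          unfold fcost
          rw [hg2, sum_comm]
          refine sum_congr rfl fun A _ => ?_
          rw [sum_mul]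
      _ ≤ ∑ s ∈ range (Fintype.card X), 1 / 8 * pw g P (s + 1) := by
          refine sum_le_sum fun s _ => ?_
          rw [hpdef, fcost_dbl]
          refine mul_le_mul_of_nonneg_right ?_ (pw_nonneg hg hP.le _)
          rw [pow_succ]
          have : ((1 : ℝ) / 16) ^ s ≤ 1 := pow_le_one₀ (by norm_num) (by norm_num)
          linarith
      _ ≤ 1 / 16 := by
          rw [← mul_sum]
          linarith
  refine ⟨(range (Fintype.card X)).biUnion Gt ∪ G', ?_, ?_⟩
  · intro H hH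
    obtain ⟨s, hs, hsH⟩ := exists_part hg h0 (hcov H hH)
    rcases hGt s H hH hsH with ⟨S, hS, hSH⟩ | ⟨_, W, hWH, hWc, hW1⟩
    · exact ⟨S, mem_union_left _ (mem_biUnion.2 ⟨s, hs, hS⟩), hSH⟩
    · have hW : W ∈ 𝓢 := by
        refine mem_filter.2 ⟨mem_univ _, hWc, hW1.trans ?_⟩
        refine sum_le_sum fun A _ => ?_
        exact single_le_sum (f := fun s => dbl g p (s + 1) A)
          (fun s _ => dbl_nonneg hg hp.le _ _) hs
      obtain ⟨S, hS, hSW⟩ := hG' W hW
      exact ⟨S, mem_union_right _ hS, hSW.trans hWH⟩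
  · have h1 := cost_union_le hp0.le ((range (Fintype.card X)).biUnion Gt) G'
    have h2 := cost_biUnion_le hp0.le (range (Fintype.card X)) Gt
    have h3 : ∑ s ∈ range (Fintype.card X), cost p0 (Gt s) ≤
        ∑ s ∈ range (Fintype.card X), (1 / 8 * (1 / 2) ^ (s + 1) + 1 / 8 * pw g P (s + 1)) :=
      sum_le_sum fun s _ => (cost_mono hp0.le hp0le _).trans (hGtc s)
    rw [sum_add_distrib, ← mul_sum, ← mul_sum] at h3
    have h4 : ∀ n : ℕ, ∑ s ∈ range n, ((1 : ℝ) / 2) ^ (s + 1) = 1 - (1 / 2) ^ n := by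
      intro n
      induction n with
      | zero => norm_num
      | succ n ih => rw [sum_range_succ, ih]; ring
    rw [h4] at h3
    have h5 : (0 : ℝ) ≤ (1 / 2) ^ (Fintype.card X) := by positivity
    have h6 := sum_sixteen m
    rw [hp0p] at hG'c
    linarith

end Vale.Agent.P034
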