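import Mathlib

/-!
# P034: expectation threshold and fractional expectation threshold

Definitions exactly as in the problem file.
-/

namespace Vale.Agent.P034

open Finset

variable {X : Type*}

/-- `G` covers `F`: every member of `F` contains some member of `G`. -/
def Covers (G : Finset (Finset X)) (F : Set (Finset X)) : Prop :=
  ∀ H ∈ F, ∃ S ∈ G, S ⊆ H

/-- The cost `∑_{S ∈ G} p^{|S|}` of a family `G` at `p`. -/
noncomputable def cost (p : ℝ) (G : Finset (Finset X)) : ℝ :=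
  ∑ S ∈ G, p ^ S.card

/-- `F` is `p`-small: some cover has cost at most `1/2`. -/
def IsSmall (F : Set (Finset X)) (p : ℝ) : Prop :=
  ∃ G : Finset (Finset X), Covers G F ∧ cost p G ≤ 1 / 2

/-- The expectation threshold `q(F)`. -/
noncomputable def q (F : Set (Finset X)) : ℝ :=
  sSup {p : ℝ | 0 ≤ p ∧ p ≤ 1 ∧ IsSmall F p}

/-- `g` is a fractional cover of `F`. -/
def IsFracCover (g : Finset X → ℝ) (F : Set (Finset X)) : Prop :=
  (∀ S, 0 ≤ g S ∧ g S ≤ 1) ∧ ∀ H ∈ F, 1 ≤ ∑ S ∈ H.powerset, g S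

/-- The cost `w(g,p) = ∑_S g(S) p^{|S|}` of a fractional cover. -/
noncomputable def fcost [Fintype X] (g : Finset X → ℝ) (p : ℝ) : ℝ :=
  ∑ S : Finset X, g S * p ^ S.card

/-- The fractional expectation threshold `q_f(F)`. -/
noncomputable def qf [Fintype X] (F : Set (Finset X)) : ℝ :=
  sSup {p : ℝ | 0 ≤ p ∧ p ≤ 1 ∧ ∃ g : Finset X → ℝ, IsFracCover g F ∧ fcost g p ≤ 1 / 2}

end Vale.Agent.P034
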