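import Vale.Agent.P034.Defs

/-!
# P034: greedy rounding of fractional covers
-/

namespace Vale.Agent.P034

open Finset

theorem greedy_aux {α β : Type*} [Fintype β] [DecidableEq α] [DecidableEq β]
    (R : β → α → Prop) [∀ b a, Decidable (R b a)]
    (g a : β → ℝ) (hg : ∀ b, 0 ≤ g b) (ha : ∀ b, 0 ≤ a b) (n : ℕ) :
    ∀ 𝓗 : Finset α, 𝓗.card = n →
      (∀ H ∈ 𝓗, 1 ≤ ∑ b ∈ univ.filter (fun b => R b H), g b) →
      ∃ G : Finset β, (∀ H ∈ 𝓗, ∃ b ∈ G, R b H) ∧
        ∑ b ∈ G, a b ≤ (1 + Real.log n) * ∑ b, g b * a b := by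
  induction n using Nat.strong_induction_on with
  | _ n ih =>
    intro 𝓗 hcard hcov
    set c := ∑ b, g b * a b with hc
    have hc0 : 0 ≤ c := sum_nonneg fun b _ => mul_nonneg (hg b) (ha b)
    rcases Nat.eq_zero_or_pos n with hn | hn
    · subst hn
      refine ⟨∅, ?_, ?_⟩
      · rw [card_eq_zero] at hcard
        simp [hcard]
      · simp [hc0]
    -- the number of members hit by `b`
    set k : β → ℕ := fun b => (𝓗.filter (fun H => R b H)).card with hk
    have hdc : (n : ℝ) ≤ ∑ b, g b * k b := by
      have h1 : (n : ℝ) ≤ ∑ H ∈ 𝓗, ∑ b ∈ univ.filter (fun b => R b H), g b := by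
        calc (n : ℝ) = ∑ _H ∈ 𝓗, (1 : ℝ) := by simp [hcard]
          _ ≤ _ := sum_le_sum hcov
      refine h1.trans (le_of_eq ?_)
      calc ∑ H ∈ 𝓗, ∑ b ∈ univ.filter (fun b => R b H), g b
          = ∑ H ∈ 𝓗, ∑ b, if R b H then g b else 0 := by
            refine sum_congr rfl fun H _ => ?_
            rw [sum_filter]
        _ = ∑ b, ∑ H ∈ 𝓗, if R b H then g b else 0 := sum_comm
        _ = ∑ b, g b * k b := by
            refine sum_congr rfl fun b _ => ?_
            rw [← sum_filter, sum_const, nsmul_eq_mul, mul_comm]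
    have hnpos : (0 : ℝ) < n := by exact_mod_cast hn
    obtain ⟨b, hb1, hb2⟩ : ∃ b, 0 < k b ∧ a b * n ≤ c * k b := by
      by_contra hcon
      push Not at hcon
      have hex : ∃ b ∈ (univ : Finset β), 0 < g b * k b := by
        by_contra h
        push Not at h
        have : ∑ b, g b * (k b : ℝ) ≤ 0 := sum_nonpos h
        linarith
      obtain ⟨b0, _, hb0⟩ := hex
      have hlt : ∑ b, c * (g b * k b) < ∑ b, g b * (a b * n) := by
        refine sum_lt_sum ?_ ⟨b0, mem_univ _, ?_⟩
        · intro b _
          rcases Nat.eq_zero_or_pos (k b) with h0 | h0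
          · rw [h0]; simp only [Nat.cast_zero, mul_zero]
            exact mul_nonneg (hg b) (mul_nonneg (ha b) hnpos.le)
          · have := hcon b h0
            calc c * (g b * k b) = g b * (c * k b) := by ring
              _ ≤ g b * (a b * n) := mul_le_mul_of_nonneg_left this.le (hg b)
        · have hk0 : 0 < k b0 := by
            rcases Nat.eq_zero_or_pos (k b0) with h0 | h0
            · rw [h0] at hb0; simp at hb0
            · exact h0
          have hg0 : 0 < g b0 := by
            rcases (hg b0).lt_or_eq with h | h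
            · exact h
            · rw [← h] at hb0; simp at hb0
          have := hcon b0 hk0
          calc c * (g b0 * k b0) = g b0 * (c * k b0) := by ring
            _ < g b0 * (a b0 * n) := mul_lt_mul_of_pos_left this hg0
      rw [← mul_sum] at hlt
      have h2 : ∑ b, g b * (a b * n) = c * n := by
        rw [hc, sum_mul]
        refine sum_congr rfl fun b _ => by ring
      rw [h2] at hlt
      have := mul_le_mul_of_nonneg_left hdc hc0
      linarith
    set 𝓗' := 𝓗.filter (fun H => ¬ R b H) with h𝓗'
    have hcard' : 𝓗'.card + k b = n := by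
      rw [← hcard, h𝓗', hk]
      have := card_filter_add_card_filter_not (s := 𝓗) (fun H => R b H)
      simp only at this ⊢
      omega
    have hab : a b ≤ c * (k b / n) := by
      rw [← mul_div_assoc, le_div_iff₀ hnpos]
      exact hb2
    rcases Nat.eq_zero_or_pos 𝓗'.card with h0 | h0
    · refine ⟨{b}, ?_, ?_⟩
      · intro H hH
        refine ⟨b, mem_singleton_self _, ?_⟩
        by_contra hR
        have : H ∈ 𝓗' := mem_filter.2 ⟨hH, hR⟩
        rw [card_eq_zero] at h0
        rw [h0] at this
        simp at this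
      · rw [sum_singleton]
        have hkn : k b = n := by omega
        rw [hkn, div_self hnpos.ne', mul_one] at hab
        have hlog : 0 ≤ Real.log n := Real.log_natCast_nonneg n
        nlinarith
    · obtain ⟨G', hG'1, hG'2⟩ := ih 𝓗'.card (by omega) 𝓗' rfl
        (fun H hH => hcov H (mem_filter.1 hH).1)
      refine ⟨insert b G', ?_, ?_⟩
      · intro H hH
        by_cases hR : R b H
        · exact ⟨b, mem_insert_self _ _, hR⟩
        · obtain ⟨b', hb', hR'⟩ := hG'1 H (mem_filter.2 ⟨hH, hR⟩)
          exact ⟨b', mem_insert_of_mem hb', hR'⟩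
      · have h1 : ∑ b ∈ insert b G', a b ≤ a b + ∑ b ∈ G', a b := by
          by_cases hbG : b ∈ G'
          · rw [insert_eq_of_mem hbG]
            linarith [ha b]
          · rw [sum_insert hbG]
        have h2 : Real.log (𝓗'.card : ℝ) - Real.log n ≤ - ((k b : ℝ) / n) := by
          have hpos : (0 : ℝ) < 𝓗'.card := by exact_mod_cast h0
          rw [← Real.log_div hpos.ne' hnpos.ne']
          have := Real.log_le_sub_one_of_pos (div_pos hpos hnpos)
          have h3 : (𝓗'.card : ℝ) = n - k b := by
            rw [← hcard']; push_cast; ring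
          rw [h3] at this ⊢
          have h4 : ((n : ℝ) - k b) / n - 1 = - ((k b : ℝ) / n) := by
            field_simp; ring
          linarith
        have h5 : c * ((k b : ℝ) / n) ≤ c * (Real.log n - Real.log (𝓗'.card : ℝ)) :=
          mul_le_mul_of_nonneg_left (by linarith) hc0
        nlinarith

/-- Greedy rounding for families of sets. -/
theorem greedy {X : Type*} [Fintype X] [DecidableEq X] (𝓗 : Finset (Finset X))
    (g : Finset X → ℝ) (hg : ∀ S, 0 ≤ g S)
    (hcov : ∀ H ∈ 𝓗, 1 ≤ ∑ S ∈ H.powerset, g S) (p : ℝ) (hp : 0 ≤ p) :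
    ∃ G : Finset (Finset X), (∀ H ∈ 𝓗, ∃ S ∈ G, S ⊆ H) ∧
      cost p G ≤ (1 + Real.log 𝓗.card) * fcost g p := by
  have := greedy_aux (α := Finset X) (β := Finset X) (fun S H => S ⊆ H) g
    (fun S => p ^ S.card) hg (fun S => pow_nonneg hp _) 𝓗.card 𝓗 rfl ?_
  · exact this
  · intro H hH
    refine (hcov H hH).trans (le_of_eq ?_)
    refine sum_congr ?_ fun _ _ => rfl
    ext S
    simp

end Vale.Agent.P034
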