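import Vale.Agent.P034.Core

/-!
# P034: choice of parameters
-/

namespace Vale.Agent.P034

open Finset

theorem exp_le_two_pow {x : ℝ} (k : ℕ) (h : 3 / 2 * x ≤ k) (hx : 0 ≤ x) :
    Real.exp x ≤ 2 ^ k := by
  have h1 : (2 : ℝ) ^ k = Real.exp (k * Real.log 2) := by
    rw [Real.exp_nat_mul, Real.exp_log (by norm_num)]
  rw [h1]
  refine Real.exp_le_exp.2 ?_
  have h2 := Real.log_two_gt_d9
  have h3 : (2 : ℝ) / 3 ≤ Real.log 2 := by linarith
  calc x ≤ 3 / 2 * x * (2 / 3) := by linarith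
    _ ≤ k * Real.log 2 := mul_le_mul h h3 (by norm_num) (Nat.cast_nonneg k)

/-- The triple logarithm, cut off below at one. -/
noncomputable def L3 (n : ℕ) : ℝ := max 1 (Real.log (Real.log (Real.log n)))

theorem params (n : ℕ) : ∃ r R m : ℕ, 16 * (n + 1) ≤ 2 ^ r ∧ 16 * (1 + r ^ 2) ≤ 2 ^ R ∧
    R * R < 2 ^ m ∧ (m : ℝ) ≤ 11 * L3 n := by
  set L := L3 n with hL
  have hL1 : 1 ≤ L := le_max_left _ _
  have hL2 : Real.log (Real.log (Real.log n)) ≤ L := le_max_right _ _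
  set b := Real.exp L with hb
  set a := Real.exp b with ha
  have hb2 : 2 ≤ b := by have := Real.add_one_le_exp L; linarith
  have ha3 : 3 ≤ a := by have := Real.add_one_le_exp b; linarith
  have hn : (n : ℝ) ≤ Real.exp a := by
    by_cases h3 : 3 ≤ n
    · have h3' : (3 : ℝ) ≤ n := by exact_mod_cast h3
      have hlog : 1 < Real.log n := by
        rw [Real.lt_log_iff_exp_lt (by linarith)]
        have := Real.exp_one_lt_d9
        linarith
      have hll : 0 < Real.log (Real.log n) := Real.log_pos hlog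
      have e1 : Real.log (Real.log n) ≤ b := by
        rw [← Real.exp_log hll]
        exact Real.exp_le_exp.2 hL2
      have e2 : Real.log n ≤ a := by
        rw [← Real.exp_log (by linarith : (0 : ℝ) < Real.log n)]
        exact Real.exp_le_exp.2 e1
      rw [← Real.exp_log (by linarith : (0 : ℝ) < (n : ℝ))]
      exact Real.exp_le_exp.2 e2
    · have h3' : (n : ℝ) ≤ 3 := by exact_mod_cast (by omega : n ≤ 3)
      have := Real.add_one_le_exp a
      linarith
  -- r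
  set r := 5 + ⌈3 / 2 * a⌉₊ with hr
  have hr1 : (r : ℝ) ≤ 7 / 2 * a := by
    have := (Nat.ceil_lt_add_one (by linarith : 0 ≤ 3 / 2 * a)).le
    rw [hr]; push_cast
    linarith
  have hr2 : 16 * ((n : ℝ) + 1) ≤ 2 ^ r := by
    have h1 := exp_le_two_pow (x := a) ⌈3 / 2 * a⌉₊ (Nat.le_ceil _) (by linarith)
    have h2 : 1 ≤ Real.exp a := Real.one_le_exp (by linarith)
    rw [hr, pow_add]
    calc 16 * ((n : ℝ) + 1) ≤ 2 ^ 5 * Real.exp a := by norm_num; linarith
      _ ≤ _ := mul_le_mul_of_nonneg_left h1 (by positivity)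
  -- R
  set R := 8 + ⌈3 / 2 * (2 * b)⌉₊ with hR
  have hR1 : (R : ℝ) ≤ 15 / 2 * b := by
    have := (Nat.ceil_lt_add_one (by linarith : 0 ≤ 3 / 2 * (2 * b))).le
    rw [hR]; push_cast
    linarith
  have hR2 : 16 * (1 + (r : ℝ) ^ 2) ≤ 2 ^ R := by
    have h1 := exp_le_two_pow (x := 2 * b) ⌈3 / 2 * (2 * b)⌉₊ (Nat.le_ceil _) (by linarith)
    have h2 : Real.exp (2 * b) = a ^ 2 := by
      rw [ha, ← Real.exp_nat_mul]; norm_num
    rw [h2] at h1
    have h3 : (r : ℝ) ^ 2 ≤ (7 / 2 * a) ^ 2 := pow_le_pow_left₀ (Nat.cast_nonneg _) hr1 2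
    rw [hR, pow_add]
    calc 16 * (1 + (r : ℝ) ^ 2) ≤ 2 ^ 8 * a ^ 2 := by nlinarith
      _ ≤ _ := mul_le_mul_of_nonneg_left h1 (by positivity)
  -- m
  set m := 7 + ⌈3 / 2 * (2 * L)⌉₊ with hm
  have hm1 : (m : ℝ) ≤ 11 * L := by
    have := (Nat.ceil_lt_add_one (by linarith : 0 ≤ 3 / 2 * (2 * L))).le
    rw [hm]; push_cast
    linarith
  have hm2 : (R : ℝ) * R < 2 ^ m := by
    have h1 := exp_le_two_pow (x := 2 * L) ⌈3 / 2 * (2 * L)⌉₊ (Nat.le_ceil _) (by linarith)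
    have h2 : Real.exp (2 * L) = b ^ 2 := by
      rw [hb, ← Real.exp_nat_mul]; norm_num
    rw [h2] at h1
    have h3 : (R : ℝ) ^ 2 ≤ (15 / 2 * b) ^ 2 := pow_le_pow_left₀ (Nat.cast_nonneg _) hR1 2
    rw [hm, pow_add]
    calc (R : ℝ) * R < 2 ^ 7 * b ^ 2 := by nlinarith
      _ ≤ _ := mul_le_mul_of_nonneg_left h1 (by positivity)
  refine ⟨r, R, m, ?_, ?_, ?_, hm1⟩
  · exact_mod_cast hr2
  · exact_mod_cast hR2
  · exact_mod_cast hm2

theorem q_nonneg {X : Type*} (F : Set (Finset X)) : 0 ≤ q F :=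
  Real.sSup_nonneg fun _ hp => hp.1

theorem le_q {X : Type*} {F : Set (Finset X)} {p : ℝ} (h0 : 0 ≤ p) (h1 : p ≤ 1)
    (hs : IsSmall F p) : p ≤ q F :=
  le_csSup ⟨1, fun _ hp => hp.2.1⟩ ⟨h0, h1, hs⟩

/-- The bound `q_f(F) ≤ C L q(F)`. -/
theorem qf_le {X : Type*} [Fintype X] (F : Set (Finset X)) :
    qf F ≤ (6144 * 64 * 11) * L3 (Fintype.card X) * q F := by
  classical
  have hL : 1 ≤ L3 (Fintype.card X) := le_max_left _ _
  have hq := q_nonneg F
  refine Real.sSup_le ?_ (by positivity)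
  rintro P ⟨hP0, hP1, g, hg, hw⟩
  rcases hP0.eq_or_lt with h | hP
  · rw [← h]; positivity
  obtain ⟨r, R, m, hr, hR, hm, hmL⟩ := params (Fintype.card X)
  obtain ⟨G, hG, hGc⟩ := core (F := univ.filter (fun H => H ∈ F)) (g := g) (fun S => (hg.1 S).1)
    (fun H hH => hg.2 H (mem_filter.1 hH).2) hP hP1 hw hr hR hm
  have hm1 : 1 ≤ m := by
    by_contra h
    have h0 : m = 0 := by omega
    subst h0
    have : R = 0 := by
      by_contra hne
      have : 1 ≤ R * R := Nat.mul_pos (Nat.pos_of_ne_zero hne) (Nat.pos_of_ne_zero hne)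
      simp at hm
      omega
    subst this
    simp at hR
    omega
  have hm1' : (1 : ℝ) ≤ m := by exact_mod_cast hm1
  have hsmall : IsSmall F (P / (6144 * 64 * m)) :=
    ⟨G, fun H hH => hG H (mem_filter.2 ⟨mem_univ _, hH⟩), hGc⟩
  have h1 : P / (6144 * 64 * m) ≤ q F := by
    refine le_q (by positivity) ?_ hsmall
    rw [div_le_one (by positivity)]
    nlinarith
  rw [div_le_iff₀ (by positivity)] at h1
  calc P ≤ q F * (6144 * 64 * m) := h1
    _ ≤ q F * (6144 * 64 * (11 * L3 (Fintype.card X))) := by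
        refine mul_le_mul_of_nonneg_left ?_ hq
        linarith
    _ = _ := by ring

end Vale.Agent.P034
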